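import Vale.Agent.P088.R2.H551.B.Spec
import Vale.Agent.P088.H129.KDat
import Vale.Agent.P088.H292.UPush

/-!
# P088, row JB-DAT: equal Dirichlet-to-Neumann forms give `DatG`
-/

open MeasureTheory Set
open scoped ContDiff Matrix

noncomputable section

namespace Vale.Agent.P088.PJ.Bd.H285

open Vale.Agent.P088.LR Vale.Agent.P088.LR.U Vale.Agent.P088.LR.H158
open Vale.Agent.P088.LR.K (Dat)

/-- **Row JB-DAT** -/
theorem rowDAT : RowDAT := by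
  intro n N Ω hΩ hb g₁ g₂ hg₁ hg₂ hp₁ hp₂ A₁ A₂ hA₁ hA₂ hD
  refine ⟨K.H129.dat Ω hΩ hb g₁ g₂ hg₁ hg₂ hp₁ hp₂ A₁ A₂ hA₁ hA₂ hD, fun f hf => ?_⟩
  have hfr : ∀ x ∈ frontier Ω, x ∉ Ω := fun x hx => by
    rw [hΩ.frontier_eq] at hx
    exact hx.2
  obtain ⟨u, v, u', v', h1, h2, h3, h4, he⟩ := hD f f hf hf
  exact ⟨u, h1.1, h1.2.1, H292.UP.lav_of_weak hΩ hb (smM_sg hg₁ hp₁)
    (K.H129.symm_sg g₁ hp₁) hA₁ h1.1 fun φ hφ h0 => h1.2.2 φ hφ fun x hx => h0 x (hfr x hx)⟩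

end Vale.Agent.P088.PJ.Bd.H285
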